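import Vale.Agent.P154.D6.K2.Data
import Vale.Agent.P154.ApxLemma

set_option maxRecDepth 100000

namespace Vale.Agent.P154.D6.K2

open PolyR Cert InT OutT

/-- The quotient polynomial for `j = 1`. -/
noncomputable def S1 (u : ℝ) : ℝ :=
  (-67 / 16777216 : ℝ) * u ^ 0 + (-913 / 8388608 : ℝ) * u ^ 1 + (561 / 1048576 : ℝ) * u ^ 2 + (22313 / 4194304 : ℝ) * u ^ 3 + (-127787 / 8388608 : ℝ) * u ^ 4 + (-1014429 / 16777216 : ℝ) * u ^ 5 + (716659 / 4194304 : ℝ) * u ^ 6 + (2403111 / 16777216 : ℝ) * u ^ 7 + (-10819803 / 16777216 : ℝ) * u ^ 8 + (1775319 / 4194304 : ℝ) * u ^ 9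

/-- Certificate polynomial. -/
def lpu1 : List ITm := [⟨(-695877133694011718034744262695312500000000000000000000),0,0⟩,⟨(-5237634834156779106706380844116210937500000000000000000),1,0⟩,⟨17795025751084238290786743164062500000000000000000000000,2,0⟩,⟨130620559510466921204745769500732421875000000000000000000,3,0⟩,⟨(-276113765821563572011800019598007202148437500000000000000),4,0⟩,⟨(-809041596420337363276236060495364036560058593750000000000),5,0⟩,⟨1687716715283490354850793156118842376498779296875000000000,6,0⟩,⟨1044428318191837514170106424297208470171292260644531250000,7,0⟩,⟨(-3471378479405536794002403736495101520021343466310669218750),8,0⟩,⟨1681886992117135528502324304845764599651493321438400489061,9,0⟩]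

/-- Certificate tree. -/
def tpu1 : OutT := (A (A (A (O l) (A (O l) (A (O l) (O l)))) (A (A (A (A (O l) (O l)) (A (O l) (A (O l) (O l)))) (A (A (A (O l) (O l)) (A (A (O l) (O l)) (A (O l) (O l)))) (A (A (A (O l) (O l)) (A (O l) (O l))) (A (O l) (O l))))) (A (A (A (A (O l) (O l)) (A (O l) (O l))) (A (O l) (O l))) (A (A (O l) (O l)) (A (O l) (O l)))))) (A (A (A (A (A (O l) (O l)) (A (O l) (O l))) (A (A (O l) (O l)) (A (O l) (O l)))) (A (A (A (O l) (A (O l) (O l))) (A (A (O l) (O l)) (A (O l) (O l)))) (A (A (A (O l) (O l)) (A (O l) (O l))) (A (A (A (O l) (O l)) (A (O l) (O l))) (A (A (O l) (O l)) (A (O l) (O l))))))) (A (A (A (A (A (A (O l) (O l)) (A (O l) (O l))) (A (A (A (O l) (O l)) (A (O l) (O l))) (A (A (O l) (O l)) (A (O l) (O l))))) (A (A (A (A (O l) (O l)) (A (O l) (O l))) (A (A (A (O l) (O l)) (A (O l) (O l))) (A (A (O l) (O l)) (A (O l) (O l))))) (A (A (A (A (O l) (O l)) (A (O l) (O l))) (A (A (O l) (O l)) (A (O l) (O l)))) (A (A (A (O l) (O l)) (A (O l) (O l))) (A (A (O l) (O l)) (A (O l) (O l))))))) (A (A (A (A (A (A (O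 l) (O l)) (A (O l) (O l))) (A (A (O l) (O l)) (A (O l) (O l)))) (A (A (A (O l) (O l)) (A (O l) (O l))) (A (A (O l) (O l)) (A (O l) (O l))))) (A (A (A (A (O l) (O l)) (A (O l) (O l))) (A (O l) (O l))) (A (A (O l) (O l)) (A (O l) (O l))))) (A (A (A (A (O l) (O l)) (A (O l) (O l))) (A (A (O l) (O l)) (A (O l) (O l)))) (A (A (A (O l) (O l)) (A (O l) (O l))) (A (O l) (O l)))))) (A (A (A (A (A (O l) (O l)) (A (O l) (O l))) (A (A (O l) (O l)) (A (O l) (O l)))) (A (A (A (O l) (O l)) (A (O l) (O l))) (A (A (O l) (O l)) (A (O l) (O l))))) (A (A (A (A (O l) (O l)) (A (O l) (O l))) (A (A (O l) (O l)) (A (O l) (O l)))) (A (A (A (O l) (O l)) (A (O l) (O l))) (A (A (A (O l) (O l)) (A (O l) (O l))) (A (A (O l) (O l)) (A (A (O l) (O l)) (A (O l) (A (O l) (O l))))))))))))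

theorem hpu1 (x : ℝ) (h0 : 0 ≤ x) (h1 : x ≤ 1) : evalIL lpu1 x 0 ≤ 0 :=
  uni_le 9 65536 lpu1 (by norm_num) (by norm_num) (by decide +kernel)
    (chkOut_sound (uniPb 9 65536 lpu1) tpu1 0 32768 0 32768 (by decide +kernel)) x h0 h1

/-- Certificate polynomial. -/
def lpl1 : List ITm := [⟨(-208387973543722182512283325195312500000000000000000000),0,0⟩,⟨4570100544697197619825601577758789062500000000000000000,1,0⟩,⟨(-17795025751084238290786743164062500000000000000000000000),2,0⟩,⟨(-130620559510466921204745769500732421875000000000000000000),3,0⟩,⟨276113765821563572011800019598007202148437500000000000000,4,0⟩,⟨809041596420337363276236060495364036560058593750000000000,5,0⟩,⟨(-1687716715283490354850793156118842376498779296875000000000),6,0⟩,⟨(-1044428318191837514170106424297208470171292260644531250000),7,0⟩,⟨3471378479405536794002403736495101520021343466310669218750,8,0⟩,⟨(-1681886992117135528502324304845764599651493321438400489061),9,0⟩]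

/-- Certificate tree. -/
def tpl1 : OutT := (A (A (A (A (A (O l) (O l)) (A (A (O l) (O l)) (A (O l) (O l)))) (A (A (O l) (O l)) (A (O l) (O l)))) (A (A (O l) (A (O l) (O l))) (A (A (O l) (O l)) (A (A (O l) (O l)) (A (O l) (O l)))))) (A (A (A (A (A (A (O l) (O l)) (A (O l) (O l))) (A (A (O l) (O l)) (A (A (O l) (O l)) (A (O l) (O l))))) (A (A (A (A (O l) (O l)) (A (A (O l) (O l)) (A (O l) (O l)))) (A (A (A (O l) (O l)) (A (O l) (O l))) (A (A (O l) (O l)) (A (O l) (O l))))) (A (A (A (A (O l) (O l)) (A (O l) (O l))) (A (A (O l) (O l)) (A (O l) (O l)))) (A (A (A (O l) (O l)) (A (O l) (O l))) (A (A (O l) (O l)) (A (O l) (O l))))))) (A (A (A (A (A (A (O l) (O l)) (O l)) (A (O l) (O l))) (A (A (O l) (O l)) (A (O l) (O l)))) (A (A (A (O l) (O l)) (A (O l) (O l))) (A (A (O l) (O l)) (A (O l) (O l))))) (A (A (A (O l) (O l)) (A (O l) (O l))) (A (A (O l) (O l)) (A (O l) (O l)))))) (A (A (A (A (A (O l) (O l)) (A (O l) (O l))) (A (A (O l) (O l)) (A (O l) (O l)))) (A (A (A (O l) (O l)) (A (O l) (O l))) (A (A (A (O l) (O l)) (A (O l) (O l))) (A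 (A (O l) (O l)) (A (O l) (O l)))))) (A (A (A (A (A (O l) (O l)) (A (O l) (O l))) (A (A (O l) (O l)) (A (O l) (O l)))) (A (A (A (A (O l) (O l)) (A (O l) (O l))) (A (A (O l) (O l)) (A (O l) (O l)))) (A (A (A (O l) (O l)) (A (O l) (O l))) (A (A (A (O l) (O l)) (A (O l) (O l))) (A (A (O l) (O l)) (A (O l) (O l))))))) (A (A (A (A (A (A (O l) (O l)) (A (O l) (O l))) (A (A (O l) (A (O l) (O l))) (A (A (O l) (O l)) (A (O l) (O l))))) (A (A (A (A (O l) (O l)) (A (O l) (O l))) (A (A (O l) (O l)) (A (O l) (O l)))) (A (A (A (O l) (O l)) (A (O l) (O l))) (A (A (O l) (O l)) (A (O l) (O l)))))) (A (A (A (A (A (O l) (O l)) (A (O l) (O l))) (A (A (O l) (O l)) (A (O l) (O l)))) (A (A (A (O l) (O l)) (A (O l) (O l))) (A (O l) (O l)))) (A (A (A (O l) (O l)) (A (O l) (O l))) (A (A (O l) (O l)) (A (O l) (O l)))))) (A (A (A (A (A (O l) (O l)) (O l)) (A (O l) (O l))) (A (A (O l) (O l)) (A (O l) (O l)))) (A (A (A (O l) (O l)) (O l)) (A (O l) (O l)))))))))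

theorem hpl1 (x : ℝ) (h0 : 0 ≤ x) (h1 : x ≤ 1) : evalIL lpl1 x 0 ≤ 0 :=
  uni_le 9 65536 lpl1 (by norm_num) (by norm_num) (by decide +kernel)
    (chkOut_sound (uniPb 9 65536 lpl1) tpl1 0 32768 0 32768 (by decide +kernel)) x h0 h1

/-- Certificate polynomial. -/
def lnu1 : List ITm := [⟨(-356289092451333999633789062500000000000000000000000000000),0,0⟩,⟨1340834517544135451316833496093750000000000000000000000000,1,0⟩,⟨2277763296138782501220703125000000000000000000000000000000,2,0⟩,⟨(-8359715808669882957103729248046875000000000000000000000000),3,0⟩,⟨(-8835640506290034304377600627136230468750000000000000000000),4,0⟩,⟨12944665542725397812419776967925824584960937500000000000000,5,0⟩,⟨13501733722267922838806345248950739011990234375000000000000,6,0⟩,⟨(-4177713272767350056680425697188833880685169042578125000000),7,0⟩,⟨(-6942756958811073588004807472990203040042686932621338437500),8,0⟩,⟨(-1681886992117135528502324304845764599651493321438400489061),9,0⟩]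

/-- Certificate tree. -/
def tnu1 : OutT := (A (A (A (O l) (A (O l) (O l))) (A (A (A (O l) (A (O l) (O l))) (A (A (O l) (O l)) (O l))) (A (A (O l) (O l)) (O l)))) (A (A (A (O l) (O l)) (A (O l) (O l))) (A (A (A (O l) (O l)) (A (O l) (A (O l) (O l)))) (A (A (A (A (O l) (O l)) (A (O l) (O l))) (A (A (A (O l) (O l)) (A (O l) (O l))) (A (A (O l) (O l)) (A (O l) (O l))))) (A (A (A (O l) (O l)) (A (O l) (O l))) (A (O l) (O l)))))))

theorem hnu1 (x : ℝ) (h0 : 0 ≤ x) (h1 : x ≤ 1) : evalIL lnu1 x 0 ≤ 0 :=
  uni_le 9 65536 lnu1 (by norm_num) (by norm_num) (by decide +kernel)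
    (chkOut_sound (uniPb 9 65536 lnu1) tnu1 0 32768 0 32768 (by decide +kernel)) x h0 h1

/-- Certificate polynomial. -/
def lnl1 : List ITm := [⟨(-106694642454385757446289062500000000000000000000000000000),0,0⟩,⟨(-1169945739442482590675354003906250000000000000000000000000),1,0⟩,⟨(-2277763296138782501220703125000000000000000000000000000000),2,0⟩,⟨8359715808669882957103729248046875000000000000000000000000,3,0⟩,⟨8835640506290034304377600627136230468750000000000000000000,4,0⟩,⟨(-12944665542725397812419776967925824584960937500000000000000),5,0⟩,⟨(-13501733722267922838806345248950739011990234375000000000000),6,0⟩,⟨4177713272767350056680425697188833880685169042578125000000,7,0⟩,⟨6942756958811073588004807472990203040042686932621338437500,8,0⟩,⟨1681886992117135528502324304845764599651493321438400489061,9,0⟩]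

/-- Certificate tree. -/
def tnl1 : OutT := (A (A (A (O l) (O l)) (A (O l) (O l))) (A (A (A (O l) (A (O l) (O l))) (A (A (A (O l) (O l)) (A (A (O l) (O l)) (A (O l) (O l)))) (A (A (A (O l) (O l)) (A (O l) (O l))) (A (A (O l) (O l)) (O l))))) (A (A (A (A (O l) (O l)) (O l)) (A (O l) (O l))) (A (A (O l) (O l)) (A (O l) (A (O l) (A (O l) (A (O l) (O l)))))))))

theorem hnl1 (x : ℝ) (h0 : 0 ≤ x) (h1 : x ≤ 1) : evalIL lnl1 x 0 ≤ 0 :=
  uni_le 9 65536 lnl1 (by norm_num) (by norm_num) (by decide +kernel)
    (chkOut_sound (uniPb 9 65536 lnl1) tnl1 0 32768 0 32768 (by decide +kernel)) x h0 h1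

theorem apx1 (u : ℝ) (h0 : -(461379 / 1250000 : ℝ) ≤ u) (h1 : u ≤ 2 * (461379 / 1250000 : ℝ)) :
    |((1 + u)⁻¹) ^ 1 - evalZ Ax.p1 (3 * u) / Ax.D1| ≤ Ax.e1 * |u| ^ Ax.m1 := by
  have hu : 0 < 1 + u := by norm_num at h0 ⊢; linarith
  refine apx_of_S 1 2 _ (S1 u) _ u hu ?_ ?_ ?_
  · simp only [Ax, evalZ_cons, evalZ_nil, S1]
    push_cast
    ring
  · rcases le_total 0 u with hs | hs
    · have hx := hpu1 (u / (2 * (461379 / 1250000 : ℝ))) (by positivity) (by rw [div_le_one (by norm_num)]; exact h1)
      have e : evalIL lpu1 (u / (2 * (461379 / 1250000 : ℝ))) 0 = 61035156250000000000000000000000000000000000000000000000000 * (S1 u - Ax.e1 * (1 + u) ^ 1) := by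
        simp only [lpu1, evalIL, List.map_cons, List.map_nil, List.sum_cons, List.sum_nil, S1, Ax]
        push_cast
        ring
      rw [e] at hx
      have := cmul_nonpos (by norm_num) hx
      simp only [Ax] at this ⊢
      linarith
    · have hx := hnu1 (-u / (461379 / 1250000 : ℝ)) (by apply div_nonneg <;> [linarith; norm_num]) (by rw [div_le_one (by norm_num)]; linarith)
      have e : evalIL lnu1 (-u / (461379 / 1250000 : ℝ)) 0 = 31250000000000000000000000000000000000000000000000000000000000 * (S1 u - Ax.e1 * (1 + u) ^ 1) := by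
        simp only [lnu1, evalIL, List.map_cons, List.map_nil, List.sum_cons, List.sum_nil, S1, Ax]
        push_cast
        ring
      rw [e] at hx
      have := cmul_nonpos (by norm_num) hx
      simp only [Ax] at this ⊢
      linarith
  · rcases le_total 0 u with hs | hs
    · have hx := hpl1 (u / (2 * (461379 / 1250000 : ℝ))) (by positivity) (by rw [div_le_one (by norm_num)]; exact h1)
      have e : evalIL lpl1 (u / (2 * (461379 / 1250000 : ℝ))) 0 = 61035156250000000000000000000000000000000000000000000000000 * (-S1 u - Ax.e1 * (1 + u) ^ 1) := by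
        simp only [lpl1, evalIL, List.map_cons, List.map_nil, List.sum_cons, List.sum_nil, S1, Ax]
        push_cast
        ring
      rw [e] at hx
      have := cmul_nonpos (by norm_num) hx
      simp only [Ax] at this ⊢
      linarith
    · have hx := hnl1 (-u / (461379 / 1250000 : ℝ)) (by apply div_nonneg <;> [linarith; norm_num]) (by rw [div_le_one (by norm_num)]; linarith)
      have e : evalIL lnl1 (-u / (461379 / 1250000 : ℝ)) 0 = 31250000000000000000000000000000000000000000000000000000000000 * (-S1 u - Ax.e1 * (1 + u) ^ 1) := by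
        simp only [lnl1, evalIL, List.map_cons, List.map_nil, List.sum_cons, List.sum_nil, S1, Ax]
        push_cast
        ring
      rw [e] at hx
      have := cmul_nonpos (by norm_num) hx
      simp only [Ax] at this ⊢
      linarith

/-- The quotient polynomial for `j = 2`. -/
noncomputable def S2 (u : ℝ) : ℝ :=
  (-839 / 16777216 : ℝ) * u ^ 0 + (-10915 / 8388608 : ℝ) * u ^ 1 + (46397 / 8388608 : ℝ) * u ^ 2 + (1135929 / 16777216 : ℝ) * u ^ 3 + (-2172863 / 16777216 : ℝ) * u ^ 4 + (-14558101 / 16777216 : ℝ) * u ^ 5 + (5876741 / 4194304 : ℝ) * u ^ 6 + (29234619 / 8388608 : ℝ) * u ^ 7 + (-51241853 / 8388608 : ℝ) * u ^ 8 + (-16144211 / 8388608 : ℝ) * u ^ 9 + (2406789 / 524288 : ℝ) * u ^ 10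

/-- Certificate polynomial. -/
def lpu2 : List ITm := [⟨(-1308837482838498544879257678985595703125000000000000000000000),0,0⟩,⟨(-10388602039881789096398279070854187011718750000000000000000000),1,0⟩,⟨28291207860977264090251992456614971160888671875000000000000000,2,0⟩,⟨259755526389053570468283724039793014526367187500000000000000000,3,0⟩,⟨(-366795298000982645787200958665460348129272460937500000000000000),4,0⟩,⟨(-1814153158126472778751817443072288030385971069335937500000000000),5,0⟩,⟨2162437526313903821294412035370684023561897277832031250000000000,6,0⟩,⟨3970564608120101744763111559321078019938346842071533203125000000,7,0⟩,⟨(-5137566557041924763566699582935241730747380484977457666015625000),8,0⟩,⟨(-1194888182723005198631645459204195580180952455164059643906953125),9,0⟩,⟨2104002481275477229520471998415305319361186900593697366924161178,10,0⟩]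

/-- Certificate tree. -/
def tpu2 : OutT := (A (A (A (O l) (A (O l) (A (O l) (O l)))) (A (A (A (O l) (A (O l) (A (O l) (O l)))) (A (A (A (O l) (O l)) (A (A (O l) (O l)) (A (O l) (O l)))) (A (A (A (O l) (O l)) (A (O l) (O l))) (A (O l) (O l))))) (A (A (A (A (O l) (O l)) (O l)) (A (O l) (O l))) (A (A (O l) (O l)) (A (O l) (O l)))))) (A (A (A (A (A (O l) (O l)) (A (O l) (O l))) (A (A (O l) (O l)) (A (O l) (O l)))) (A (A (A (O l) (O l)) (A (O l) (A (O l) (O l)))) (A (A (A (O l) (O l)) (A (O l) (O l))) (A (A (O l) (O l)) (A (A (O l) (O l)) (A (O l) (O l))))))) (A (A (A (A (A (A (O l) (O l)) (A (O l) (O l))) (A (A (O l) (O l)) (A (A (O l) (O l)) (A (O l) (O l))))) (A (A (A (A (O l) (O l)) (A (O l) (O l))) (A (A (O l) (O l)) (A (A (O l) (O l)) (A (O l) (O l))))) (A (A (A (A (O l) (O l)) (A (O l) (O l))) (A (A (O l) (O l)) (A (O l) (O l)))) (A (A (A (O l) (O l)) (A (O l) (O l))) (A (A (O l) (O l)) (A (O l) (O l))))))) (A (A (A (A (A (A (O l) (O l)) (A (O l) (O l))) (A (A (O l) (O l)) (A (O l) (O l)))) (A (A (A (O l) (O l)) (A (O l) (O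 l))) (A (A (O l) (O l)) (O l)))) (A (A (A (O l) (O l)) (A (O l) (O l))) (A (A (O l) (O l)) (A (O l) (O l))))) (A (A (A (A (O l) (O l)) (A (O l) (O l))) (A (O l) (O l))) (A (A (O l) (O l)) (A (O l) (O l)))))) (A (A (A (A (A (O l) (O l)) (A (O l) (O l))) (A (A (O l) (O l)) (A (O l) (O l)))) (A (A (A (O l) (O l)) (A (O l) (O l))) (A (A (O l) (O l)) (O l)))) (A (A (A (O l) (O l)) (A (A (O l) (O l)) (A (O l) (O l)))) (A (A (A (O l) (O l)) (A (O l) (O l))) (A (A (O l) (O l)) (A (A (O l) (O l)) (A (O l) (A (O l) (A (O l) (O l))))))))))))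

theorem hpu2 (x : ℝ) (h0 : 0 ≤ x) (h1 : x ≤ 1) : evalIL lpu2 x 0 ≤ 0 :=
  uni_le 10 65536 lpu2 (by norm_num) (by norm_num) (by decide +kernel)
    (chkOut_sound (uniPb 10 65536 lpu2) tpu2 0 32768 0 32768 (by decide +kernel)) x h0 h1

/-- Certificate polynomial. -/
def lpl2 : List ITm := [⟨(-355004914354140055365860462188720703125000000000000000000000),0,0⟩,⟨7932083827483893401222303509712219238281250000000000000000000,1,0⟩,⟨(-29197916594031607064607669599354267120361328125000000000000000),2,0⟩,⟨(-259755526389053570468283724039793014526367187500000000000000000),3,0⟩,⟨366795298000982645787200958665460348129272460937500000000000000,4,0⟩,⟨1814153158126472778751817443072288030385971069335937500000000000,5,0⟩,⟨(-2162437526313903821294412035370684023561897277832031250000000000),6,0⟩,⟨(-3970564608120101744763111559321078019938346842071533203125000000),7,0⟩,⟨5137566557041924763566699582935241730747380484977457666015625000,8,0⟩,⟨1194888182723005198631645459204195580180952455164059643906953125,9,0⟩,⟨(-2104002481275477229520471998415305319361186900593697366924161178),10,0⟩]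

/-- Certificate tree. -/
def tpl2 : OutT := (A (A (A (A (A (O l) (A (O l) (O l))) (A (A (O l) (O l)) (A (O l) (O l)))) (A (A (O l) (O l)) (O l))) (A (A (O l) (A (O l) (O l))) (A (A (O l) (O l)) (A (A (O l) (O l)) (A (O l) (O l)))))) (A (A (A (A (A (O l) (A (O l) (O l))) (A (A (O l) (O l)) (A (A (O l) (O l)) (A (O l) (O l))))) (A (A (A (A (O l) (O l)) (A (O l) (A (O l) (O l)))) (A (A (A (O l) (O l)) (A (O l) (O l))) (A (A (O l) (O l)) (A (O l) (O l))))) (A (A (A (A (O l) (O l)) (A (O l) (O l))) (A (A (O l) (O l)) (A (O l) (O l)))) (A (A (A (O l) (O l)) (A (O l) (O l))) (A (A (O l) (O l)) (O l)))))) (A (A (A (A (A (O l) (O l)) (A (O l) (O l))) (A (A (O l) (O l)) (A (O l) (O l)))) (A (A (A (O l) (O l)) (O l)) (A (O l) (O l)))) (A (A (A (O l) (O l)) (A (O l) (O l))) (A (A (O l) (O l)) (A (O l) (O l)))))) (A (A (A (A (A (O l) (O l)) (A (O l) (O l))) (A (A (O l) (O l)) (A (O l) (O l)))) (A (A (A (O l) (O l)) (A (O l) (O l))) (A (A (O l) (O l)) (A (O l) (O l))))) (A (A (A (A (A (O l) (O l)) (A (O l) (O l))) (A (A (O l) (O l)) (A (O l)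 (O l)))) (A (A (A (O l) (O l)) (A (A (O l) (O l)) (A (O l) (O l)))) (A (A (A (O l) (O l)) (A (O l) (O l))) (A (A (O l) (O l)) (A (O l) (A (O l) (O l))))))) (A (A (A (A (A (A (O l) (O l)) (A (O l) (O l))) (A (A (O l) (O l)) (A (O l) (O l)))) (A (A (A (A (O l) (O l)) (A (O l) (O l))) (A (A (O l) (O l)) (A (O l) (O l)))) (A (A (A (O l) (O l)) (A (O l) (O l))) (A (A (O l) (O l)) (A (O l) (O l)))))) (A (A (A (A (A (O l) (O l)) (A (O l) (O l))) (A (O l) (O l))) (A (A (O l) (O l)) (A (O l) (O l)))) (A (A (A (O l) (O l)) (A (O l) (O l))) (A (O l) (O l))))) (A (A (A (A (O l) (O l)) (A (O l) (O l))) (A (A (O l) (O l)) (O l))) (A (A (O l) (O l)) (A (O l) (O l)))))))))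

theorem hpl2 (x : ℝ) (h0 : 0 ≤ x) (h1 : x ≤ 1) : evalIL lpl2 x 0 ≤ 0 :=
  uni_le 10 65536 lpl2 (by norm_num) (by norm_num) (by decide +kernel)
    (chkOut_sound (uniPb 10 65536 lpl2) tpl2 0 32768 0 32768 (by decide +kernel)) x h0 h1

/-- Certificate polynomial. -/
def lnu2 : List ITm := [⟨(-670124791213311254978179931640625000000000000000000000000000000),0,0⟩,⟨2659482122209738008677959442138671875000000000000000000000000000,1,0⟩,⟨3621274606205089803552255034446716308593750000000000000000000000,2,0⟩,⟨(-16624353688899428509970158338546752929687500000000000000000000000),3,0⟩,⟨(-11737449536031444665190430677294731140136718750000000000000000000),4,0⟩,⟨29026450530023564460029079089156608486175537109375000000000000000,5,0⟩,⟨17299500210511230570355296282965472188495178222656250000000000000,6,0⟩,⟨(-15882258432480406979052446237284312079753387368286132812500000000),7,0⟩,⟨(-10275133114083849527133399165870483461494760969954915332031250000),8,0⟩,⟨1194888182723005198631645459204195580180952455164059643906953125,9,0⟩,⟨1052001240637738614760235999207652659680593450296848683462080589,10,0⟩]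

/-- Certificate tree. -/
def tnu2 : OutT := (A (A (A (O l) (A (O l) (O l))) (A (A (A (O l) (A (O l) (O l))) (A (A (O l) (O l)) (A (O l) (O l)))) (A (A (O l) (O l)) (O l)))) (A (A (A (O l) (O l)) (A (O l) (O l))) (A (A (A (O l) (O l)) (A (A (O l) (O l)) (A (O l) (O l)))) (A (A (A (A (O l) (O l)) (A (O l) (A (O l) (O l)))) (A (A (A (O l) (O l)) (A (O l) (A (O l) (O l)))) (A (A (A (O l) (O l)) (O l)) (A (O l) (O l))))) (A (A (A (A (O l) (O l)) (O l)) (A (O l) (O l))) (A (O l) (O l)))))))

theorem hnu2 (x : ℝ) (h0 : 0 ≤ x) (h1 : x ≤ 1) : evalIL lnu2 x 0 ≤ 0 :=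
  uni_le 10 65536 lnu2 (by norm_num) (by norm_num) (by decide +kernel)
    (chkOut_sound (uniPb 10 65536 lnu2) tnu2 0 32768 0 32768 (by decide +kernel)) x h0 h1

/-- Certificate polynomial. -/
def lnl2 : List ITm := [⟨(-181762516149319708347320556640625000000000000000000000000000000),0,0⟩,⟨(-2030613459835876710712909698486328125000000000000000000000000000),1,0⟩,⟨(-3737333324036045704269781708717346191406250000000000000000000000),2,0⟩,⟨16624353688899428509970158338546752929687500000000000000000000000,3,0⟩,⟨11737449536031444665190430677294731140136718750000000000000000000,4,0⟩,⟨(-29026450530023564460029079089156608486175537109375000000000000000),5,0⟩,⟨(-17299500210511230570355296282965472188495178222656250000000000000),6,0⟩,⟨15882258432480406979052446237284312079753387368286132812500000000,7,0⟩,⟨10275133114083849527133399165870483461494760969954915332031250000,8,0⟩,⟨(-1194888182723005198631645459204195580180952455164059643906953125),9,0⟩,⟨(-1052001240637738614760235999207652659680593450296848683462080589),10,0⟩]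

/-- Certificate tree. -/
def tnl2 : OutT := (A (A (A (O l) (O l)) (A (O l) (A (O l) (O l)))) (A (A (A (O l) (A (O l) (O l))) (A (A (A (O l) (O l)) (A (A (O l) (O l)) (A (O l) (O l)))) (A (A (A (A (O l) (O l)) (A (O l) (O l))) (A (O l) (O l))) (A (A (O l) (O l)) (O l))))) (A (A (A (A (O l) (O l)) (A (O l) (O l))) (A (O l) (O l))) (A (A (O l) (O l)) (A (A (O l) (O l)) (A (O l) (A (O l) (A (O l) (A (O l) (O l))))))))))

theorem hnl2 (x : ℝ) (h0 : 0 ≤ x) (h1 : x ≤ 1) : evalIL lnl2 x 0 ≤ 0 :=
  uni_le 10 65536 lnl2 (by norm_num) (by norm_num) (by decide +kernel)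
    (chkOut_sound (uniPb 10 65536 lnl2) tnl2 0 32768 0 32768 (by decide +kernel)) x h0 h1

theorem apx2 (u : ℝ) (h0 : -(461379 / 1250000 : ℝ) ≤ u) (h1 : u ≤ 2 * (461379 / 1250000 : ℝ)) :
    |((1 + u)⁻¹) ^ 2 - evalZ Ax.p2 (3 * u) / Ax.D2| ≤ Ax.e2 * |u| ^ Ax.m2 := by
  have hu : 0 < 1 + u := by norm_num at h0 ⊢; linarith
  refine apx_of_S 2 2 _ (S2 u) _ u hu ?_ ?_ ?_
  · simp only [Ax, evalZ_cons, evalZ_nil, S2]
    push_cast
    ring
  · rcases le_total 0 u with hs | hs
    · have hx := hpu2 (u / (2 * (461379 / 1250000 : ℝ))) (by positivity) (by rw [div_le_one (by norm_num)]; exact h1)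
      have e : evalIL lpu2 (u / (2 * (461379 / 1250000 : ℝ))) 0 = 9536743164062500000000000000000000000000000000000000000000000000 * (S2 u - Ax.e2 * (1 + u) ^ 2) := by
        simp only [lpu2, evalIL, List.map_cons, List.map_nil, List.sum_cons, List.sum_nil, S2, Ax]
        push_cast
        ring
      rw [e] at hx
      have := cmul_nonpos (by norm_num) hx
      simp only [Ax] at this ⊢
      linarith
    · have hx := hnu2 (-u / (461379 / 1250000 : ℝ)) (by apply div_nonneg <;> [linarith; norm_num]) (by rw [div_le_one (by norm_num)]; linarith)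
      have e : evalIL lnu2 (-u / (461379 / 1250000 : ℝ)) 0 = 4882812500000000000000000000000000000000000000000000000000000000000 * (S2 u - Ax.e2 * (1 + u) ^ 2) := by
        simp only [lnu2, evalIL, List.map_cons, List.map_nil, List.sum_cons, List.sum_nil, S2, Ax]
        push_cast
        ring
      rw [e] at hx
      have := cmul_nonpos (by norm_num) hx
      simp only [Ax] at this ⊢
      linarith
  · rcases le_total 0 u with hs | hs
    · have hx := hpl2 (u / (2 * (461379 / 1250000 : ℝ))) (by positivity) (by rw [div_le_one (by norm_num)]; exact h1)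
      have e : evalIL lpl2 (u / (2 * (461379 / 1250000 : ℝ))) 0 = 9536743164062500000000000000000000000000000000000000000000000000 * (-S2 u - Ax.e2 * (1 + u) ^ 2) := by
        simp only [lpl2, evalIL, List.map_cons, List.map_nil, List.sum_cons, List.sum_nil, S2, Ax]
        push_cast
        ring
      rw [e] at hx
      have := cmul_nonpos (by norm_num) hx
      simp only [Ax] at this ⊢
      linarith
    · have hx := hnl2 (-u / (461379 / 1250000 : ℝ)) (by apply div_nonneg <;> [linarith; norm_num]) (by rw [div_le_one (by norm_num)]; linarith)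
      have e : evalIL lnl2 (-u / (461379 / 1250000 : ℝ)) 0 = 4882812500000000000000000000000000000000000000000000000000000000000 * (-S2 u - Ax.e2 * (1 + u) ^ 2) := by
        simp only [lnl2, evalIL, List.map_cons, List.map_nil, List.sum_cons, List.sum_nil, S2, Ax]
        push_cast
        ring
      rw [e] at hx
      have := cmul_nonpos (by norm_num) hx
      simp only [Ax] at this ⊢
      linarith

/-- The quotient polynomial for `j = 3`. -/
noncomputable def S3 (u : ℝ) : ℝ :=
  (2101 / 2097152 : ℝ) * u ^ 0 + (-91223 / 4194304 : ℝ) * u ^ 1 + (-3012909 / 16777216 : ℝ) * u ^ 2 + (10971795 / 16777216 : ℝ) * u ^ 3 + (3901689 / 1048576 : ℝ) * u ^ 4 + (-12758087 / 2097152 : ℝ) * u ^ 5 + (-92485035 / 4194304 : ℝ) * u ^ 6 + (401282453 / 16777216 : ℝ) * u ^ 7 + (330008149 / 8388608 : ℝ) * u ^ 8 + (-93704209 / 4194304 : ℝ) * u ^ 9 + (-431276473 / 16777216 : ℝ) * u ^ 10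

/-- Certificate polynomial. -/
def lpu3 : List ITm := [⟨(-142174911843540030531585216522216796875000000000000000000000000),0,0⟩,⟨(-3103273357027092060889117419719696044921875000000000000000000000),1,0⟩,⟨(-15415168503638533014236600138247013092041015625000000000000000000),2,0⟩,⟨40024442925806852007402479066513478755950927734375000000000000000,3,0⟩,⟨168610272227154648237950340279579162597656250000000000000000000000,4,0⟩,⟨(-203500157699544327893402587905848856353759765625000000000000000000),5,0⟩,⟨(-544500730065061069457503585461884945803976440429687500000000000000),6,0⟩,⟨436008529679533199115232884803326413098181366290771484375000000000,7,0⟩,⟨529391887480324649968270013156169386905348460508212491406250000000,8,0⟩,⟨(-221931791165032059089249951201794211083395233975088505294927500000),9,0⟩,⟨(-188509829758183280906510841783765520648513704271926497594188583073),10,0⟩]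

/-- Certificate tree. -/
def tpu3 : OutT := (A (A (A (A (O l) (O l)) (O l)) (A (A (O l) (A (O l) (O l))) (A (A (O l) (A (O l) (O l))) (A (A (O l) (A (O l) (O l))) (A (A (O l) (A (O l) (O l))) (A (A (O l) (O l)) (A (O l) (O l)))))))) (A (A (A (A (A (A (A (O l) (O l)) (A (O l) (O l))) (A (O l) (O l))) (A (A (O l) (O l)) (A (O l) (O l)))) (A (A (O l) (O l)) (A (O l) (O l)))) (A (A (A (O l) (O l)) (A (O l) (O l))) (A (A (O l) (O l)) (A (O l) (O l))))) (A (A (A (A (O l) (O l)) (A (O l) (O l))) (A (A (O l) (O l)) (A (A (O l) (O l)) (A (O l) (O l))))) (A (A (A (A (O l) (O l)) (A (O l) (A (O l) (O l)))) (A (A (A (O l) (O l)) (A (O l) (A (O l) (O l)))) (A (A (A (O l) (O l)) (A (O l) (O l))) (A (A (O l) (A (O l) (O l))) (A (A (O l) (O l)) (A (O l) (O l))))))) (A (A (A (A (A (A (O l) (O l)) (A (O l) (O l))) (A (O l) (O l))) (A (A (O l) (O l)) (A (O l) (O l)))) (A (A (O l) (O l)) (A (O l) (O l)))) (A (A (A (O l) (O l)) (O l)) (A (O l) (O l))))))))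

theorem hpu3 (x : ℝ) (h0 : 0 ≤ x) (h1 : x ≤ 1) : evalIL lpu3 x 0 ≤ 0 :=
  uni_le 10 65536 lpu3 (by norm_num) (by norm_num) (by decide +kernel)
    (chkOut_sound (uniPb 10 65536 lpu3) tpu3 0 32768 0 32768 (by decide +kernel)) x h0 h1

/-- Certificate polynomial. -/
def lpl3 : List ITm := [⟨(-447910650791527586989104747772216796875000000000000000000000000),0,0⟩,⟨1796458540372668721829541027545928955078125000000000000000000000,1,0⟩,⟨14450469442369411117033450864255428314208984375000000000000000000,2,0⟩,⟨(-40261825266174471309700981364585459232330322265625000000000000000),3,0⟩,⟨(-168610272227154648237950340279579162597656250000000000000000000000),4,0⟩,⟨203500157699544327893402587905848856353759765625000000000000000000,5,0⟩,⟨544500730065061069457503585461884945803976440429687500000000000000,6,0⟩,⟨(-436008529679533199115232884803326413098181366290771484375000000000),7,0⟩,⟨(-529391887480324649968270013156169386905348460508212491406250000000),8,0⟩,⟨221931791165032059089249951201794211083395233975088505294927500000,9,0⟩,⟨188509829758183280906510841783765520648513704271926497594188583073,10,0⟩]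

/-- Certificate tree. -/
def tpl3 : OutT := (A (A (A (A (O l) (O l)) (A (A (O l) (A (O l) (O l))) (A (A (O l) (O l)) (A (O l) (O l))))) (A (A (A (O l) (O l)) (A (O l) (O l))) (A (A (O l) (O l)) (A (O l) (O l))))) (A (A (A (A (O l) (O l)) (A (O l) (A (O l) (O l)))) (A (A (A (O l) (O l)) (A (O l) (A (O l) (O l)))) (A (A (A (O l) (O l)) (A (O l) (O l))) (A (A (A (O l) (O l)) (A (O l) (O l))) (A (A (O l) (O l)) (A (A (O l) (O l)) (A (O l) (O l)))))))) (A (A (A (A (A (A (A (O l) (O l)) (A (O l) (O l))) (A (A (O l) (O l)) (A (O l) (O l)))) (A (A (A (O l) (O l)) (A (O l) (O l))) (A (O l) (O l)))) (A (A (A (O l) (O l)) (A (O l) (O l))) (A (A (O l) (O l)) (O l)))) (A (A (A (O l) (O l)) (A (O l) (O l))) (A (A (O l) (O l)) (A (O l) (O l))))) (A (A (A (O l) (O l)) (A (O l) (O l))) (A (A (O l) (A (O l) (O l))) (A (A (O l) (O l)) (A (O l) (A (O l) (A (O l) (A (O l) (O l)))))))))))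

theorem hpl3 (x : ℝ) (h0 : 0 ≤ x) (h1 : x ≤ 1) : evalIL lpl3 x 0 ≤ 0 :=
  uni_le 10 65536 lpl3 (by norm_num) (by norm_num) (by decide +kernel)
    (chkOut_sound (uniPb 10 65536 lpl3) tpl3 0 32768 0 32768 (by decide +kernel)) x h0 h1

/-- Certificate polynomial. -/
def lnu3 : List ITm := [⟨(-145587109727784991264343261718750000000000000000000000000000000000),0,0⟩,⟨1588875958797871135175228118896484375000000000000000000000000000000,1,0⟩,⟨(-3946283136931464451644569635391235351562500000000000000000000000000),2,0⟩,⟨(-5123128694503277056947517320513725280761718750000000000000000000000),3,0⟩,⟨10791057422537897487228821777893066406250000000000000000000000000000,4,0⟩,⟨6512005046385418492588882812987163403320312500000000000000000000000,5,0⟩,⟨(-8712011681040977111320057367390159132863623046875000000000000000000),6,0⟩,⟨(-3488068237436265592921863078426611304785450930326171875000000000000),7,0⟩,⟨2117567549921298599873080052624677547621393842032849965625000000000,8,0⟩,⟨443863582330064118178499902403588422166790467950177010589855000000,9,0⟩,⟨(-188509829758183280906510841783765520648513704271926497594188583073),10,0⟩]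

/-- Certificate tree. -/
def tnu3 : OutT := (A (A (A (A (O l) (O l)) (A (A (O l) (O l)) (A (O l) (O l)))) (A (A (O l) (O l)) (A (O l) (O l)))) (A (A (A (O l) (O l)) (A (O l) (O l))) (A (A (A (O l) (O l)) (A (A (O l) (O l)) (A (O l) (A (O l) (O l))))) (A (A (A (A (O l) (A (O l) (O l))) (A (A (O l) (O l)) (A (O l) (O l)))) (A (A (A (O l) (O l)) (A (O l) (O l))) (A (O l) (O l)))) (A (A (A (O l) (O l)) (O l)) (A (O l) (O l)))))))

theorem hnu3 (x : ℝ) (h0 : 0 ≤ x) (h1 : x ≤ 1) : evalIL lnu3 x 0 ≤ 0 :=
  uni_le 10 65536 lnu3 (by norm_num) (by norm_num) (by decide +kernel)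
    (chkOut_sound (uniPb 10 65536 lnu3) tnu3 0 32768 0 32768 (by decide +kernel)) x h0 h1

/-- Certificate polynomial. -/
def lnl3 : List ITm := [⟨(-458660506410524249076843261718750000000000000000000000000000000000),0,0⟩,⟨(-919786772670806385576725006103515625000000000000000000000000000000),1,0⟩,⟨3699320177246569245960563421249389648437500000000000000000000000000,2,0⟩,⟨5153513634070332327641725614666938781738281250000000000000000000000,3,0⟩,⟨(-10791057422537897487228821777893066406250000000000000000000000000000),4,0⟩,⟨(-6512005046385418492588882812987163403320312500000000000000000000000),5,0⟩,⟨8712011681040977111320057367390159132863623046875000000000000000000,6,0⟩,⟨3488068237436265592921863078426611304785450930326171875000000000000,7,0⟩,⟨(-2117567549921298599873080052624677547621393842032849965625000000000),8,0⟩,⟨(-443863582330064118178499902403588422166790467950177010589855000000),9,0⟩,⟨188509829758183280906510841783765520648513704271926497594188583073,10,0⟩]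

/-- Certificate tree. -/
def tnl3 : OutT := (A (A (O l) (A (O l) (A (O l) (O l)))) (A (A (A (A (O l) (O l)) (A (A (O l) (O l)) (A (A (O l) (O l)) (A (O l) (O l))))) (A (A (A (A (O l) (O l)) (A (O l) (O l))) (A (O l) (O l))) (A (A (O l) (O l)) (O l)))) (A (A (A (O l) (O l)) (A (O l) (O l))) (A (A (O l) (O l)) (A (O l) (A (O l) (A (O l) (A (O l) (A (O l) (O l))))))))))

theorem hnl3 (x : ℝ) (h0 : 0 ≤ x) (h1 : x ≤ 1) : evalIL lnl3 x 0 ≤ 0 :=
  uni_le 10 65536 lnl3 (by norm_num) (by norm_num) (by decide +kernel)
    (chkOut_sound (uniPb 10 65536 lnl3) tnl3 0 32768 0 32768 (by decide +kernel)) x h0 h1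

theorem apx3 (u : ℝ) (h0 : -(461379 / 1250000 : ℝ) ≤ u) (h1 : u ≤ 2 * (461379 / 1250000 : ℝ)) :
    |((1 + u)⁻¹) ^ 3 - evalZ Ax.p3 (3 * u) / Ax.D3| ≤ Ax.e3 * |u| ^ Ax.m3 := by
  have hu : 0 < 1 + u := by norm_num at h0 ⊢; linarith
  refine apx_of_S 3 2 _ (S3 u) _ u hu ?_ ?_ ?_
  · simp only [Ax, evalZ_cons, evalZ_nil, S3]
    push_cast
    ring
  · rcases le_total 0 u with hs | hs
    · have hx := hpu3 (u / (2 * (461379 / 1250000 : ℝ))) (by positivity) (by rw [div_le_one (by norm_num)]; exact h1)
      have e : evalIL lpu3 (u / (2 * (461379 / 1250000 : ℝ))) 0 = 152587890625000000000000000000000000000000000000000000000000000000 * (S3 u - Ax.e3 * (1 + u) ^ 3) := by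
        simp only [lpu3, evalIL, List.map_cons, List.map_nil, List.sum_cons, List.sum_nil, S3, Ax]
        push_cast
        ring
      rw [e] at hx
      have := cmul_nonpos (by norm_num) hx
      simp only [Ax] at this ⊢
      linarith
    · have hx := hnu3 (-u / (461379 / 1250000 : ℝ)) (by apply div_nonneg <;> [linarith; norm_num]) (by rw [div_le_one (by norm_num)]; linarith)
      have e : evalIL lnu3 (-u / (461379 / 1250000 : ℝ)) 0 = 156250000000000000000000000000000000000000000000000000000000000000000 * (S3 u - Ax.e3 * (1 + u) ^ 3) := by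
        simp only [lnu3, evalIL, List.map_cons, List.map_nil, List.sum_cons, List.sum_nil, S3, Ax]
        push_cast
        ring
      rw [e] at hx
      have := cmul_nonpos (by norm_num) hx
      simp only [Ax] at this ⊢
      linarith
  · rcases le_total 0 u with hs | hs
    · have hx := hpl3 (u / (2 * (461379 / 1250000 : ℝ))) (by positivity) (by rw [div_le_one (by norm_num)]; exact h1)
      have e : evalIL lpl3 (u / (2 * (461379 / 1250000 : ℝ))) 0 = 152587890625000000000000000000000000000000000000000000000000000000 * (-S3 u - Ax.e3 * (1 + u) ^ 3) := by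
        simp only [lpl3, evalIL, List.map_cons, List.map_nil, List.sum_cons, List.sum_nil, S3, Ax]
        push_cast
        ring
      rw [e] at hx
      have := cmul_nonpos (by norm_num) hx
      simp only [Ax] at this ⊢
      linarith
    · have hx := hnl3 (-u / (461379 / 1250000 : ℝ)) (by apply div_nonneg <;> [linarith; norm_num]) (by rw [div_le_one (by norm_num)]; linarith)
      have e : evalIL lnl3 (-u / (461379 / 1250000 : ℝ)) 0 = 156250000000000000000000000000000000000000000000000000000000000000000 * (-S3 u - Ax.e3 * (1 + u) ^ 3) := by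
        simp only [lnl3, evalIL, List.map_cons, List.map_nil, List.sum_cons, List.sum_nil, S3, Ax]
        push_cast
        ring
      rw [e] at hx
      have := cmul_nonpos (by norm_num) hx
      simp only [Ax] at this ⊢
      linarith

/-- The quotient polynomial for `j = 4`. -/
noncomputable def S4 (u : ℝ) : ℝ :=
  (107643 / 4194304 : ℝ) * u ^ 0 + (2649973 / 16777216 : ℝ) * u ^ 1 + (-16517125 / 8388608 : ℝ) * u ^ 2 + (-8958273 / 1048576 : ℝ) * u ^ 3 + (334331737 / 16777216 : ℝ) * u ^ 4 + (330263211 / 4194304 : ℝ) * u ^ 5 + (-471257157 / 8388608 : ℝ) * u ^ 6 + (-225448603 / 1048576 : ℝ) * u ^ 7 + (-87188371 / 16777216 : ℝ) * u ^ 8 + (3198660279 / 16777216 : ℝ) * u ^ 9 + (741525245 / 8388608 : ℝ) * u ^ 10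

/-- Certificate polynomial. -/
def lpu4 : List ITm := [⟨(-12927003467666509095579385757446289062500000000000000000000000),0,0⟩,⟨584671707186953426571562886238098144531250000000000000000000000,1,0⟩,⟨(-17695385870572140163494623266160488128662109375000000000000000000),2,0⟩,⟨(-53092778230354000345209070248529314994812011718750000000000000000),3,0⟩,⟨90180127446010448206003101117493864148855209350585937500000000000,4,0⟩,⟨263396132668079011245620148214600703773498535156250000000000000000,5,0⟩,⟨(-138725073756465088986516938660440811543554595947265625000000000000),6,0⟩,⟨(-391933465029271229789457412028209943527177913741015625000000000000),7,0⟩,⟨(-6993284321900911722922130649451777241468371052114364492187500000),8,0⟩,⟨189395015608880274836524348338468834554859187641727725751456312500,9,0⟩,⟨64823752950857186280645674844805626446236348926039303215375070849,10,0⟩]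

/-- Certificate tree. -/
def tpu4 : OutT := (A (A (A (A (A (O l) (O l)) (A (O l) (O l))) (A (O l) (O l))) (A (O l) (A (O l) (O l)))) (A (A (A (A (O l) (O l)) (A (O l) (A (O l) (O l)))) (A (A (A (O l) (A (O l) (O l))) (A (A (O l) (A (O l) (O l))) (A (A (O l) (O l)) (A (O l) (O l))))) (A (A (A (A (O l) (O l)) (O l)) (A (O l) (O l))) (A (A (O l) (O l)) (O l))))) (A (A (A (A (O l) (O l)) (A (O l) (O l))) (A (O l) (O l))) (A (A (O l) (O l)) (A (O l) (A (O l) (A (O l) (A (O l) (A (O l) (O l))))))))))

theorem hpu4 (x : ℝ) (h0 : 0 ≤ x) (h1 : x ≤ 1) : evalIL lpu4 x 0 ≤ 0 :=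
  uni_le 10 65536 lpu4 (by norm_num) (by norm_num) (by decide +kernel)
    (chkOut_sound (uniPb 10 65536 lpu4) tpu4 0 32768 0 32768 (by decide +kernel)) x h0 h1

/-- Certificate polynomial. -/
def lpl4 : List ITm := [⟨(-796132908931213023606687784194946289062500000000000000000000000),0,0⟩,⟨(-2973684528452122322050854563713073730468750000000000000000000000),1,0⟩,⟨15050009039062134499909006990492343902587890625000000000000000000,2,0⟩,⟨51790888825399061781945637660101056098937988281250000000000000000,3,0⟩,⟨(-90420393218717930045755068823180440813302993774414062500000000000),4,0⟩,⟨(-263396132668079011245620148214600703773498535156250000000000000000),5,0⟩,⟨138725073756465088986516938660440811543554595947265625000000000000,6,0⟩,⟨391933465029271229789457412028209943527177913741015625000000000000,7,0⟩,⟨6993284321900911722922130649451777241468371052114364492187500000,8,0⟩,⟨(-189395015608880274836524348338468834554859187641727725751456312500),9,0⟩,⟨(-64823752950857186280645674844805626446236348926039303215375070849),10,0⟩]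

/-- Certificate tree. -/
def tpl4 : OutT := (A (A (A (O l) (A (O l) (O l))) (A (A (A (O l) (O l)) (A (A (O l) (O l)) (A (A (O l) (O l)) (A (O l) (O l))))) (A (A (A (O l) (O l)) (A (O l) (O l))) (A (O l) (O l))))) (A (A (A (A (O l) (O l)) (O l)) (A (O l) (A (O l) (O l)))) (A (A (A (O l) (O l)) (A (A (O l) (O l)) (A (O l) (O l)))) (A (A (A (A (O l) (O l)) (A (A (O l) (O l)) (A (O l) (O l)))) (A (A (A (O l) (O l)) (A (O l) (O l))) (A (A (O l) (O l)) (A (O l) (O l))))) (A (A (A (O l) (O l)) (A (O l) (O l))) (A (O l) (O l)))))))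

theorem hpl4 (x : ℝ) (h0 : 0 ≤ x) (h1 : x ≤ 1) : evalIL lpl4 x 0 ≤ 0 :=
  uni_le 10 65536 lpl4 (by norm_num) (by norm_num) (by decide +kernel)
    (chkOut_sound (uniPb 10 65536 lpl4) tpl4 0 32768 0 32768 (by decide +kernel)) x h0 h1

/-- Certificate polynomial. -/
def lnu4 : List ITm := [⟨(-13237251550890505313873291015625000000000000000000000000000000000),0,0⟩,⟨(-299351914079720154404640197753906250000000000000000000000000000000),1,0⟩,⟨(-4530018782866467881854623556137084960937500000000000000000000000000),2,0⟩,⟨6795875613485312044186760991811752319335937500000000000000000000000,3,0⟩,⟨5771528156544668685184198471519607305526733398437500000000000000000,4,0⟩,⟨(-8428676245378528359859844742867222520751953125000000000000000000000),5,0⟩,⟨(-2219601180103441423784271018567052984696873535156250000000000000000),6,0⟩,⟨3135467720234169838315659296225679548217423309928125000000000000000,7,0⟩,⟨(-27973137287603646891688522597807108965873484208457457968750000000),8,0⟩,⟨(-378790031217760549673048696676937669109718375283455451502912625000),9,0⟩,⟨64823752950857186280645674844805626446236348926039303215375070849,10,0⟩]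

/-- Certificate tree. -/
def tnu4 : OutT := (A (A (A (A (O l) (O l)) (O l)) (A (O l) (O l))) (A (A (O l) (A (O l) (O l))) (A (A (A (O l) (O l)) (A (A (O l) (O l)) (A (A (O l) (O l)) (A (O l) (A (O l) (O l)))))) (A (A (A (A (A (O l) (O l)) (A (O l) (O l))) (A (A (O l) (O l)) (O l))) (A (A (O l) (O l)) (O l))) (A (A (O l) (O l)) (O l))))))

theorem hnu4 (x : ℝ) (h0 : 0 ≤ x) (h1 : x ≤ 1) : evalIL lnu4 x 0 ≤ 0 :=
  uni_le 10 65536 lnu4 (by norm_num) (by norm_num) (by decide +kernel)
    (chkOut_sound (uniPb 10 65536 lnu4) tnu4 0 32768 0 32768 (by decide +kernel)) x h0 h1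

/-- Certificate polynomial. -/
def lnl4 : List ITm := [⟨(-815240098745562136173248291015625000000000000000000000000000000000),0,0⟩,⟨1522526478567486628890037536621093750000000000000000000000000000000,1,0⟩,⟨3852802313999906431976705789566040039062500000000000000000000000000,2,0⟩,⟨(-6629233769651079908089041620492935180664062500000000000000000000000),3,0⟩,⟨(-5786905165997947522928324404683548212051391601562500000000000000000),4,0⟩,⟨8428676245378528359859844742867222520751953125000000000000000000000,5,0⟩,⟨2219601180103441423784271018567052984696873535156250000000000000000,6,0⟩,⟨(-3135467720234169838315659296225679548217423309928125000000000000000),7,0⟩,⟨27973137287603646891688522597807108965873484208457457968750000000,8,0⟩,⟨378790031217760549673048696676937669109718375283455451502912625000,9,0⟩,⟨(-64823752950857186280645674844805626446236348926039303215375070849),10,0⟩]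

/-- Certificate tree. -/
def tnl4 : OutT := (A (A (O l) (A (O l) (A (O l) (A (O l) (A (O l) (O l)))))) (A (A (A (A (A (O l) (O l)) (A (O l) (O l))) (A (A (O l) (O l)) (O l))) (A (A (O l) (O l)) (A (O l) (O l)))) (A (A (O l) (O l)) (A (A (O l) (O l)) (A (O l) (A (O l) (A (O l) (A (O l) (O l)))))))))

theorem hnl4 (x : ℝ) (h0 : 0 ≤ x) (h1 : x ≤ 1) : evalIL lnl4 x 0 ≤ 0 :=
  uni_le 10 65536 lnl4 (by norm_num) (by norm_num) (by decide +kernel)
    (chkOut_sound (uniPb 10 65536 lnl4) tnl4 0 32768 0 32768 (by decide +kernel)) x h0 h1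

theorem apx4 (u : ℝ) (h0 : -(461379 / 1250000 : ℝ) ≤ u) (h1 : u ≤ 2 * (461379 / 1250000 : ℝ)) :
    |((1 + u)⁻¹) ^ 4 - evalZ Ax.p4 (3 * u) / Ax.D4| ≤ Ax.e4 * |u| ^ Ax.m4 := by
  have hu : 0 < 1 + u := by norm_num at h0 ⊢; linarith
  refine apx_of_S 4 2 _ (S4 u) _ u hu ?_ ?_ ?_
  · simp only [Ax, evalZ_cons, evalZ_nil, S4]
    push_cast
    ring
  · rcases le_total 0 u with hs | hs
    · have hx := hpu4 (u / (2 * (461379 / 1250000 : ℝ))) (by positivity) (by rw [div_le_one (by norm_num)]; exact h1)
      have e : evalIL lpu4 (u / (2 * (461379 / 1250000 : ℝ))) 0 = 15258789062500000000000000000000000000000000000000000000000000000 * (S4 u - Ax.e4 * (1 + u) ^ 4) := by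
        simp only [lpu4, evalIL, List.map_cons, List.map_nil, List.sum_cons, List.sum_nil, S4, Ax]
        push_cast
        ring
      rw [e] at hx
      have := cmul_nonpos (by norm_num) hx
      simp only [Ax] at this ⊢
      linarith
    · have hx := hnu4 (-u / (461379 / 1250000 : ℝ)) (by apply div_nonneg <;> [linarith; norm_num]) (by rw [div_le_one (by norm_num)]; linarith)
      have e : evalIL lnu4 (-u / (461379 / 1250000 : ℝ)) 0 = 15625000000000000000000000000000000000000000000000000000000000000000 * (S4 u - Ax.e4 * (1 + u) ^ 4) := by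
        simp only [lnu4, evalIL, List.map_cons, List.map_nil, List.sum_cons, List.sum_nil, S4, Ax]
        push_cast
        ring
      rw [e] at hx
      have := cmul_nonpos (by norm_num) hx
      simp only [Ax] at this ⊢
      linarith
  · rcases le_total 0 u with hs | hs
    · have hx := hpl4 (u / (2 * (461379 / 1250000 : ℝ))) (by positivity) (by rw [div_le_one (by norm_num)]; exact h1)
      have e : evalIL lpl4 (u / (2 * (461379 / 1250000 : ℝ))) 0 = 15258789062500000000000000000000000000000000000000000000000000000 * (-S4 u - Ax.e4 * (1 + u) ^ 4) := by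
        simp only [lpl4, evalIL, List.map_cons, List.map_nil, List.sum_cons, List.sum_nil, S4, Ax]
        push_cast
        ring
      rw [e] at hx
      have := cmul_nonpos (by norm_num) hx
      simp only [Ax] at this ⊢
      linarith
    · have hx := hnl4 (-u / (461379 / 1250000 : ℝ)) (by apply div_nonneg <;> [linarith; norm_num]) (by rw [div_le_one (by norm_num)]; linarith)
      have e : evalIL lnl4 (-u / (461379 / 1250000 : ℝ)) 0 = 15625000000000000000000000000000000000000000000000000000000000000000 * (-S4 u - Ax.e4 * (1 + u) ^ 4) := by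
        simp only [lnl4, evalIL, List.map_cons, List.map_nil, List.sum_cons, List.sum_nil, S4, Ax]
        push_cast
        ring
      rw [e] at hx
      have := cmul_nonpos (by norm_num) hx
      simp only [Ax] at this ⊢
      linarith

/-- The quotient polynomial for `j = 5`. -/
noncomputable def S5 (u : ℝ) : ℝ :=
  (721499 / 8388608 : ℝ) * u ^ 0 + (9364641 / 16777216 : ℝ) * u ^ 1 + (-52871667 / 8388608 : ℝ) * u ^ 2 + (-566796857 / 16777216 : ℝ) * u ^ 3 + (733374497 / 16777216 : ℝ) * u ^ 4 + (5394253515 / 16777216 : ℝ) * u ^ 5 + (346876919 / 8388608 : ℝ) * u ^ 6 + (-932467629 / 1048576 : ℝ) * u ^ 7 + (-11169309193 / 16777216 : ℝ) * u ^ 8 + (5231847881 / 8388608 : ℝ) * u ^ 9 + (7398753021 / 8388608 : ℝ) * u ^ 10 + (4586767067 / 16777216 : ℝ) * u ^ 11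

/-- Certificate polynomial. -/
def lpu5 : List ITm := [⟨(-217023554682782560121268033981323242187500000000000000000000000000000),0,0⟩,⟨8219362389183402228809427469968795776367187500000000000000000000000000,1,0⟩,⟨(-373440496440214137559451046399772167205810546875000000000000000000000000),2,0⟩,⟨(-1329977978780727729717101054848171770572662353515625000000000000000000000),3,0⟩,⟨1225488551436649039181488648395838681608438491821289062500000000000000000,4,0⟩,⟨6720186216388819248893850666519045893456786870956420898437500000000000000,5,0⟩,⟨638193572473032574000566163070570829151458549499511718750000000000000000,6,0⟩,⟨(-10131612704581689047982521824232068072379325363552246093750000000000000000),7,0⟩,⟨(-5599238319427844378317065263071952275702631949270795916259765625000000000),8,0⟩,⟨3872269265318259008391898740223813100856574346749948297462296093750000000,9,0⟩,⟨4042469737305709257524055541330468583936146711166113099000858351526250000,10,0⟩,⟨925002151923414706886167434377180550476491087516397521943836365986175993,11,0⟩]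

/-- Certificate tree. -/
def tpu5 : OutT := (A (A (A (A (A (O l) (O l)) (A (O l) (O l))) (A (O l) (O l))) (A (O l) (A (O l) (O l)))) (A (A (A (A (O l) (O l)) (A (O l) (A (O l) (O l)))) (A (A (A (O l) (A (O l) (O l))) (A (A (O l) (A (O l) (O l))) (A (A (O l) (O l)) (A (O l) (O l))))) (A (A (A (O l) (O l)) (A (O l) (O l))) (A (A (O l) (O l)) (O l))))) (A (A (A (A (O l) (O l)) (A (O l) (O l))) (A (O l) (O l))) (A (A (O l) (O l)) (A (O l) (A (O l) (A (O l) (A (O l) (A (O l) (O l))))))))))

theorem hpu5 (x : ℝ) (h0 : 0 ≤ x) (h1 : x ≤ 1) : evalIL lpu5 x 0 ≤ 0 :=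
  uni_le 11 65536 lpu5 (by norm_num) (by norm_num) (by decide +kernel)
    (chkOut_sound (uniPb 11 65536 lpu5) tpu5 0 32768 0 32768 (by decide +kernel)) x h0 h1

/-- Certificate polynomial. -/
def lpl5 : List ITm := [⟨(-16622011500544431328307837247848510742187500000000000000000000000000000),0,0⟩,⟨(-70372779627148815961845684796571731567382812500000000000000000000000000),1,0⟩,⟨281676395666341354766700533218681812286376953125000000000000000000000000,2,0⟩,⟨1262237132299209888673682752414606511592864990234375000000000000000000000,3,0⟩,⟨(-1250491914643686015167705682762635406106710433959960937500000000000000000),4,0⟩,⟨(-6723877744937011093035785011830763751361519098281860351562500000000000000),5,0⟩,⟨(-638193572473032574000566163070570829151458549499511718750000000000000000),6,0⟩,⟨10131612704581689047982521824232068072379325363552246093750000000000000000,7,0⟩,⟨5599238319427844378317065263071952275702631949270795916259765625000000000,8,0⟩,⟨(-3872269265318259008391898740223813100856574346749948297462296093750000000),9,0⟩,⟨(-4042469737305709257524055541330468583936146711166113099000858351526250000),10,0⟩,⟨(-925002151923414706886167434377180550476491087516397521943836365986175993),11,0⟩]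

/-- Certificate tree. -/
def tpl5 : OutT := (A (A (A (O l) (O l)) (A (A (A (O l) (O l)) (A (A (O l) (O l)) (A (O l) (O l)))) (A (A (A (O l) (O l)) (O l)) (A (O l) (O l))))) (A (A (A (A (O l) (O l)) (O l)) (A (O l) (A (O l) (O l)))) (A (A (A (O l) (O l)) (A (A (O l) (O l)) (A (O l) (O l)))) (A (A (A (A (O l) (O l)) (A (A (O l) (O l)) (A (O l) (O l)))) (A (A (A (O l) (O l)) (A (O l) (O l))) (A (A (O l) (O l)) (A (O l) (O l))))) (A (A (A (O l) (O l)) (A (O l) (O l))) (A (O l) (O l)))))))

theorem hpl5 (x : ℝ) (h0 : 0 ≤ x) (h1 : x ≤ 1) : evalIL lpl5 x 0 ≤ 0 :=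
  uni_le 11 65536 lpl5 (by norm_num) (by norm_num) (by decide +kernel)
    (chkOut_sound (uniPb 11 65536 lpl5) tpl5 0 32768 0 32768 (by decide +kernel)) x h0 h1

/-- Certificate polynomial. -/
def lnu5 : List ITm := [⟨(-444464239990338683128356933593750000000000000000000000000000000000000000),0,0⟩,⟨(-8416627086523803882300853729248046875000000000000000000000000000000000000),1,0⟩,⟨(-191201534177389638430438935756683349609375000000000000000000000000000000000),2,0⟩,⟨340474362567866298807577870041131973266601562500000000000000000000000000000,3,0⟩,⟨156862534583891077015230546994667351245880126953125000000000000000000000000,4,0⟩,⟨(-430091917848884431929206442657218937181234359741210937500000000000000000000),5,0⟩,⟨20422194319137042368018117218258266532846673583984375000000000000000000000,6,0⟩,⟨162105803273307024767720349187713089158069205816835937500000000000000000000,7,0⟩,⟨(-44793906555422755026536522104575618205621055594166367330078125000000000000),8,0⟩,⟨(-15489077061273036033567594960895252403426297386999793189849184375000000000),9,0⟩,⟨8084939474611418515048111082660937167872293422332226198001716703052500000,10,0⟩,⟨(-925002151923414706886167434377180550476491087516397521943836365986175993),11,0⟩]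

/-- Certificate tree. -/
def tnu5 : OutT := (A (A (A (A (O l) (O l)) (O l)) (A (O l) (O l))) (A (A (A (O l) (O l)) (A (O l) (A (O l) (O l)))) (A (A (A (O l) (A (O l) (O l))) (A (A (O l) (A (O l) (O l))) (A (A (O l) (O l)) (A (A (O l) (O l)) (A (O l) (O l)))))) (A (A (A (A (A (O l) (O l)) (A (O l) (O l))) (A (A (O l) (O l)) (A (O l) (O l)))) (A (A (O l) (O l)) (A (O l) (O l)))) (A (A (O l) (O l)) (A (O l) (O l)))))))

theorem hnu5 (x : ℝ) (h0 : 0 ≤ x) (h1 : x ≤ 1) : evalIL lnu5 x 0 ≤ 0 :=
  uni_le 11 65536 lnu5 (by norm_num) (by norm_num) (by decide +kernel)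
    (chkOut_sound (uniPb 11 65536 lnu5) tnu5 0 32768 0 32768 (by decide +kernel)) x h0 h1

/-- Certificate polynomial. -/
def lnl5 : List ITm := [⟨(-34041879553114995360374450683593750000000000000000000000000000000000000000),0,0⟩,⟨72061726338200387544929981231689453125000000000000000000000000000000000000,1,0⟩,⟨144218314581166773640550673007965087890625000000000000000000000000000000000,2,0⟩,⟨(-323132705868597731500462784618139266967773437500000000000000000000000000000),3,0⟩,⟨(-160062965074391809941466327393617331981658935546875000000000000000000000000),4,0⟩,⟨430328175675968709954290240757168880087137222290039062500000000000000000000,5,0⟩,⟨(-20422194319137042368018117218258266532846673583984375000000000000000000000),6,0⟩,⟨(-162105803273307024767720349187713089158069205816835937500000000000000000000),7,0⟩,⟨44793906555422755026536522104575618205621055594166367330078125000000000000,8,0⟩,⟨15489077061273036033567594960895252403426297386999793189849184375000000000,9,0⟩,⟨(-8084939474611418515048111082660937167872293422332226198001716703052500000),10,0⟩,⟨925002151923414706886167434377180550476491087516397521943836365986175993,11,0⟩]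

/-- Certificate tree. -/
def tnl5 : OutT := (A (A (O l) (A (O l) (A (O l) (A (O l) (A (O l) (O l)))))) (A (A (A (A (A (O l) (O l)) (A (A (O l) (O l)) (A (O l) (O l)))) (A (A (O l) (O l)) (A (O l) (O l)))) (A (A (O l) (O l)) (A (O l) (O l)))) (A (A (A (O l) (O l)) (A (O l) (O l))) (A (A (O l) (O l)) (A (A (O l) (O l)) (A (O l) (A (O l) (A (O l) (A (O l) (O l))))))))))

theorem hnl5 (x : ℝ) (h0 : 0 ≤ x) (h1 : x ≤ 1) : evalIL lnl5 x 0 ≤ 0 :=
  uni_le 11 65536 lnl5 (by norm_num) (by norm_num) (by decide +kernel)
    (chkOut_sound (uniPb 11 65536 lnl5) tnl5 0 32768 0 32768 (by decide +kernel)) x h0 h1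

theorem apx5 (u : ℝ) (h0 : -(461379 / 1250000 : ℝ) ≤ u) (h1 : u ≤ 2 * (461379 / 1250000 : ℝ)) :
    |((1 + u)⁻¹) ^ 5 - evalZ Ax.p5 (3 * u) / Ax.D5| ≤ Ax.e5 * |u| ^ Ax.m5 := by
  have hu : 0 < 1 + u := by norm_num at h0 ⊢; linarith
  refine apx_of_S 5 2 _ (S5 u) _ u hu ?_ ?_ ?_
  · simp only [Ax, evalZ_cons, evalZ_nil, S5]
    push_cast
    ring
  · rcases le_total 0 u with hs | hs
    · have hx := hpu5 (u / (2 * (461379 / 1250000 : ℝ))) (by positivity) (by rw [div_le_one (by norm_num)]; exact h1)
      have e : evalIL lpu5 (u / (2 * (461379 / 1250000 : ℝ))) 0 = 95367431640625000000000000000000000000000000000000000000000000000000000 * (S5 u - Ax.e5 * (1 + u) ^ 5) := by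
        simp only [lpu5, evalIL, List.map_cons, List.map_nil, List.sum_cons, List.sum_nil, S5, Ax]
        push_cast
        ring
      rw [e] at hx
      have := cmul_nonpos (by norm_num) hx
      simp only [Ax] at this ⊢
      linarith
    · have hx := hnu5 (-u / (461379 / 1250000 : ℝ)) (by apply div_nonneg <;> [linarith; norm_num]) (by rw [div_le_one (by norm_num)]; linarith)
      have e : evalIL lnu5 (-u / (461379 / 1250000 : ℝ)) 0 = 195312500000000000000000000000000000000000000000000000000000000000000000000 * (S5 u - Ax.e5 * (1 + u) ^ 5) := by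
        simp only [lnu5, evalIL, List.map_cons, List.map_nil, List.sum_cons, List.sum_nil, S5, Ax]
        push_cast
        ring
      rw [e] at hx
      have := cmul_nonpos (by norm_num) hx
      simp only [Ax] at this ⊢
      linarith
  · rcases le_total 0 u with hs | hs
    · have hx := hpl5 (u / (2 * (461379 / 1250000 : ℝ))) (by positivity) (by rw [div_le_one (by norm_num)]; exact h1)
      have e : evalIL lpl5 (u / (2 * (461379 / 1250000 : ℝ))) 0 = 95367431640625000000000000000000000000000000000000000000000000000000000 * (-S5 u - Ax.e5 * (1 + u) ^ 5) := by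
        simp only [lpl5, evalIL, List.map_cons, List.map_nil, List.sum_cons, List.sum_nil, S5, Ax]
        push_cast
        ring
      rw [e] at hx
      have := cmul_nonpos (by norm_num) hx
      simp only [Ax] at this ⊢
      linarith
    · have hx := hnl5 (-u / (461379 / 1250000 : ℝ)) (by apply div_nonneg <;> [linarith; norm_num]) (by rw [div_le_one (by norm_num)]; linarith)
      have e : evalIL lnl5 (-u / (461379 / 1250000 : ℝ)) 0 = 195312500000000000000000000000000000000000000000000000000000000000000000000 * (-S5 u - Ax.e5 * (1 + u) ^ 5) := by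
        simp only [lnl5, evalIL, List.map_cons, List.map_nil, List.sum_cons, List.sum_nil, S5, Ax]
        push_cast
        ring
      rw [e] at hx
      have := cmul_nonpos (by norm_num) hx
      simp only [Ax] at this ⊢
      linarith

theorem hAx : Ax.OK (-(461379 / 1250000 : ℝ)) (2 * (461379 / 1250000 : ℝ)) where
  e10 := by simp only [Ax]; norm_num
  e20 := by simp only [Ax]; norm_num
  e30 := by simp only [Ax]; norm_num
  e40 := by simp only [Ax]; norm_num
  e50 := by simp only [Ax]; norm_num
  h1 := fun u a b => by simpa using apx1 u a b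
  h2 := apx2
  h3 := apx3
  h4 := apx4
  h5 := apx5

end Vale.Agent.P154.D6.K2
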