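import Vale.Agent.P154.D6.K2.Charts

set_option maxRecDepth 100000

namespace Vale.Agent.P154.D6.K2

open Cert InT OutT

/-- Certificate tree. -/
def tr00_r01 : OutT :=
(A (B (A (B (O (c (c (c (c l (c l l)) (c (c l l) l)) (c (c l l) (c l l))) (c (c (c l l) (d l (c l l))) (d (c k k) (c (d l l) (d l (c l l))))))) (O (c (c (c (c (c l l) (c l l)) (c (c l l) l)) (c (c l l) (c l l))) (c (c (c l l) (c l (d l l))) (c (d k (d l l)) (d k (d l (c l l)))))))) (B (O (c (c (c (c l l) (c l l)) (c (c l l) (c l l))) (c (c (c l l) (d l (c l l))) (d (c k k) (c (c l l) (d l (c l l))))))) (O (c (c (c (c (c l l) (c l l)) (c l l)) (c (c l l) (c l l))) (c (c (c l l) (d l (c l l))) (d (c k k) (c (c l l) (d l (c l l))))))))) (A (B (O (c (c (c (c (c (c l l) (c l l)) (c l l)) (c (c l l) l)) (c (c l l) (c l l))) (c (c (c l l) (c l (c l l))) (c (d k (c l l)) (d k (d l (c l l))))))) (A (O (c (c (c (c (c l l) l) (c l l)) (c (c l l) l)) (c (c l (c l l)) (c (d k (c l l)) (d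 k (d l l)))))) (O (c (c (c (c (c l l) l) (c l l)) (c l l)) (c (c l (c l l)) (c (d k (c l l)) (d k (d l l)))))))) (B (O (c (c (c (c (c (c l l) (c l l)) (c l l)) (c l l)) (c (c l l) (c l l))) (c (c (c l l) (c l l)) (c (d k (c l l)) (d k (d l (c l l))))))) (A (O (c (c (c (c (c l l) l) (c l l)) (c l l)) (c (c l l) (c (d k l) (d k (c l l)))))) (O (c (c (c (c (c l l) l) (c l l)) (c l l)) (c (c l l) (c (d k l) (d k (c l l)))))))))) (B (A (B (O (c (c (c (c l l) (c l l)) (c (c l l) (c l l))) (c (c (c l l) (d l (c l l))) (d (c k k) (c (d l l) (d (c k k) (c l l))))))) (O (c (c (c (c (c l l) l) (c l l)) (c (c l l) l)) (c (c (c l l) (d l l)) (d (c k k) (c (c l l) (d (c k k) (c l l)))))))) (B (O (c (c (c l (c l l)) (c l l)) (c (c (c l l) (d l (c l l))) (d (c k k) (c (d l l) (d (c k k) (c l (c l l)))))))) (O (c (c (c (c (c l l) l) (c l l)) (c l l)) (c (c (c l l) (d l (c l l))) (d (c k k) (c (d (c l l) (c l l)) (d (c k k) (c l (d l l)))))))))) (A (B (O (c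 (c (c (c (c (c l l) l) (c l l)) (c l l)) (c (c l l) l)) (c (c l (c l l)) (c (d k (c l l)) (d k (d (c k k) (c l l))))))) (A (O (c (c (c (c (c l l) l) (c l l)) (c l l)) (c (c l l) (c (d k l) (d k (c l l)))))) (O (c (c (c (c (c l l) (c l l)) (c l l)) (c l l)) (c (c l l) (c (c l l) (d k (c l l)))))))) (B (O (c (c (c (c (c (c l l) l) (c l l)) (c l l)) (c (c l l) l)) (c (c (c l l) (d l (c l l))) (c (d k (d (c l l) (c l l))) (d k (d (c k k) (c (c l l) (d (c k k) (c l l))))))))) (A (O (c (c (c (c (c l l) (c l l)) (c l l)) (c l l)) (c (c l l) (c (c l l) (d k (c l l)))))) (O (c (c (c (c (c (c l l) l) (c l l)) (c l l)) (c l l)) (c (c l l) (c (c l l) (d k (d l l)))))))))))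

theorem s00_r01 : Sound P00 16384 8192 0 32768 :=
  chkOut2_sound P00 KK tr00_r01 16384 8192 0 32768 (by decide +kernel)

end Vale.Agent.P154.D6.K2
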